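import Vale.Agent.Lib.P331.Sp.Unif
import Vale.Agent.Lib.P331.Gr.SubGain

/-! # P331: reduction of `M` to a finite family of smaller constraints -/

namespace Vale.Agent.Lib.P331

open MeasureTheory
open scoped NNReal ENNReal

variable {E : Type} [Fintype E] [DecidableEq E]

theorem competitive_of_family {ι : Type} [Fintype ι] [Nonempty ι] (M : Matroid E)
    (N : ι → Matroid E) (hN : ∀ i, ∀ I : Set E, (N i).Indep I → M.Indep I) (k : ℕ)
    (hopt : ∀ v, (Fintype.card ι : ℝ≥0) * opt M v ≤ k * ∑ i, opt (N i) v)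
    (c : ℝ≥0∞) (hc : ∀ i, ∃ R : Rule E, Competitive (N i) R c) :
    ∃ R : Rule E, Competitive M R (c / k) := by
  classical
  choose R hR using hc
  have hle : ∀ i v, opt (N i) v ≤ opt M v := fun i v =>
    opt_le (N i) v _ (fun I hI => sum_le_opt M v (hN i _ hI))
  obtain ⟨R', hR'⟩ := exists_uniform_mix (Finset.univ : Finset ι) Finset.univ_nonempty M
    (fun D => (∫⁻ v, (opt M v : ℝ≥0∞) ∂(Measure.pi D)) ≠ ⊤)
    (fun i D => c * ∫⁻ v, (opt (N i) v : ℝ≥0∞) ∂(Measure.pi D))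
    (fun i _ => ⟨subRule (N i) (R i), fun D hD hfin adv => by
      obtain ⟨a, ha⟩ := sub_gain M (N i) (hN i) (R i) D adv
      rw [ha]
      have hfin' : (∫⁻ v, (opt (N i) v : ℝ≥0∞) ∂(Measure.pi D)) ≠ ⊤ :=
        ne_top_of_le_ne_top hfin (lintegral_mono (fun v => ENNReal.coe_le_coe.2 (hle i v)))
      exact hR i D hD hfin' a⟩)
  refine ⟨R', fun D hD hfin adv => ?_⟩
  refine le_trans ?_ (hR' D hD hfin adv)
  have hmM : Measurable (fun v => (opt M v : ℝ≥0∞)) := (measurable_opt M).coe_nnreal_ennreal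
  have hmN : ∀ i, Measurable (fun v => (opt (N i) v : ℝ≥0∞)) :=
    fun i => (measurable_opt (N i)).coe_nnreal_ennreal
  have hint : (Fintype.card ι : ℝ≥0∞) * ∫⁻ v, (opt M v : ℝ≥0∞) ∂(Measure.pi D)
      ≤ (k : ℝ≥0∞) * ∑ i, ∫⁻ v, (opt (N i) v : ℝ≥0∞) ∂(Measure.pi D) := by
    calc (Fintype.card ι : ℝ≥0∞) * ∫⁻ v, (opt M v : ℝ≥0∞) ∂(Measure.pi D)
        = ∫⁻ v, (Fintype.card ι : ℝ≥0∞) * (opt M v : ℝ≥0∞) ∂(Measure.pi D) :=
          (lintegral_const_mul _ hmM).symm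
      _ ≤ ∫⁻ v, (k : ℝ≥0∞) * ∑ i, (opt (N i) v : ℝ≥0∞) ∂(Measure.pi D) :=
          lintegral_mono (fun v => by
            have h := ENNReal.coe_le_coe.2 (hopt v)
            push_cast at h
            exact h)
      _ = (k : ℝ≥0∞) * ∑ i, ∫⁻ v, (opt (N i) v : ℝ≥0∞) ∂(Measure.pi D) := by
          rw [lintegral_const_mul _ (Finset.measurable_fun_sum _ (fun i _ => hmN i)),
            lintegral_finsetSum _ (fun i _ => hmN i)]
  have hn0 : (Fintype.card ι : ℝ≥0∞) ≠ 0 := by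
    exact_mod_cast Fintype.card_ne_zero
  have hnt : (Fintype.card ι : ℝ≥0∞) ≠ ⊤ := ENNReal.natCast_ne_top _
  have hck : c / k * k ≤ c := by
    by_cases hk : (k : ℝ≥0∞) = 0
    · rw [hk, mul_zero]
      exact zero_le
    · exact le_of_eq (ENNReal.div_mul_cancel hk (ENNReal.natCast_ne_top _))
  rw [Finset.card_univ, ← Finset.mul_sum]
  calc c / k * ∫⁻ v, (opt M v : ℝ≥0∞) ∂(Measure.pi D)
      = c / k * (((Fintype.card ι : ℝ≥0∞)⁻¹ * (Fintype.card ι : ℝ≥0∞))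
          * ∫⁻ v, (opt M v : ℝ≥0∞) ∂(Measure.pi D)) := by
        rw [ENNReal.inv_mul_cancel hn0 hnt, one_mul]
    _ = c / k * (Fintype.card ι : ℝ≥0∞)⁻¹ * ((Fintype.card ι : ℝ≥0∞)
          * ∫⁻ v, (opt M v : ℝ≥0∞) ∂(Measure.pi D)) := by ring
    _ ≤ c / k * (Fintype.card ι : ℝ≥0∞)⁻¹ * ((k : ℝ≥0∞)
          * ∑ i, ∫⁻ v, (opt (N i) v : ℝ≥0∞) ∂(Measure.pi D)) := by gcongr
    _ = (Fintype.card ι : ℝ≥0∞)⁻¹ * ((c / k * k)
          * ∑ i, ∫⁻ v, (opt (N i) v : ℝ≥0∞) ∂(Measure.pi D)) := by ring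
    _ ≤ (Fintype.card ι : ℝ≥0∞)⁻¹ * (c
          * ∑ i, ∫⁻ v, (opt (N i) v : ℝ≥0∞) ∂(Measure.pi D)) := by gcongr

end Vale.Agent.Lib.P331
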