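import Mathlib

/-! # P331: a fixed element of `S` is the last one of `S` for a fraction `1/|S|` of all orders -/

namespace Vale.Agent.Lib.P331

theorem swap_mem_of_mem {n : ℕ} {S : Finset (Fin n)} {x y : Fin n} (hx : x ∈ S) (hy : y ∈ S)
    {i : Fin n} (hi : i ∈ S) : Equiv.swap x y i ∈ S := by
  rw [Equiv.swap_apply_def]
  split_ifs
  · exact hy
  · exact hx
  · exact hi

theorem sup_mul_swap {n : ℕ} {S : Finset (Fin n)} {x y : Fin n} (hx : x ∈ S) (hy : y ∈ S)
    (σ : Equiv.Perm (Fin n)) :
    S.sup (fun i => (((σ * Equiv.swap x y) i : Fin n) : ℕ)) = S.sup (fun i => (σ i : ℕ)) := by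
  apply le_antisymm
  · refine Finset.sup_le (fun i hi => ?_)
    exact Finset.le_sup (f := fun i => (σ i : ℕ)) (swap_mem_of_mem hx hy hi)
  · refine Finset.sup_le (fun i hi => ?_)
    have h := Finset.le_sup (f := fun i => (((σ * Equiv.swap x y) i : Fin n) : ℕ))
      (swap_mem_of_mem hx hy hi)
    simpa using h

theorem count_lead {n : ℕ} (S : Finset (Fin n)) (x : Fin n) (hx : x ∈ S) :
    n.factorial ≤ S.card * (Finset.univ.filter
      (fun σ : Equiv.Perm (Fin n) => S.sup (fun i => (σ i : ℕ)) = (σ x : ℕ))).card := by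
  classical
  set c : Fin n → Finset (Equiv.Perm (Fin n)) := fun y =>
    Finset.univ.filter (fun σ => S.sup (fun i => (σ i : ℕ)) = (σ y : ℕ)) with hc
  have ha : (Finset.univ : Finset (Equiv.Perm (Fin n))) ⊆ S.biUnion c := by
    intro σ _
    obtain ⟨y, hy, hsup⟩ := Finset.exists_mem_eq_sup S ⟨x, hx⟩ (fun i => (σ i : ℕ))
    exact Finset.mem_biUnion.2 ⟨y, hy, by simp [hc, hsup]⟩
  have h1 : n.factorial ≤ ∑ y ∈ S, (c y).card := by
    calc n.factorial = (Finset.univ : Finset (Equiv.Perm (Fin n))).card := by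
          rw [Finset.card_univ, Fintype.card_perm, Fintype.card_fin]
      _ ≤ (S.biUnion c).card := Finset.card_le_card ha
      _ ≤ _ := Finset.card_biUnion_le
  have hb : ∀ y ∈ S, (c y).card = (c x).card := by
    intro y hy
    apply Finset.card_bij (fun σ _ => σ * Equiv.swap x y)
    · intro σ hσ
      simp only [hc, Finset.mem_filter, Finset.mem_univ, true_and] at hσ ⊢
      rw [sup_mul_swap hx hy, hσ]
      simp
    · intro σ _ τ _ h
      exact mul_right_cancel h
    · intro τ hτ
      refine ⟨τ * Equiv.swap x y, ?_, ?_⟩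
      · simp only [hc, Finset.mem_filter, Finset.mem_univ, true_and] at hτ ⊢
        rw [sup_mul_swap hx hy, hτ]
        simp
      · simp [mul_assoc]
  rw [Finset.sum_congr rfl hb, Finset.sum_const, smul_eq_mul] at h1
  exact h1

end Vale.Agent.Lib.P331
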