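import Vale.Agent.Lib.P331.Gr.Part

/-! # P331: column sparse linear matroids: definitions -/

namespace Vale.Agent.Lib.P331

variable {E F : Type} [Field F] {n : ℕ}

open scoped Classical in
/-- the rows in which the column of `e` has a nonzero entry -/
noncomputable def supp (vec : E → Fin n → F) (e : E) : Finset (Fin n) :=
  Finset.univ.filter (fun i => vec e i ≠ 0)

/-- the largest position, after the rows are permuted by `σ`, of a nonzero entry of the column -/
noncomputable def lead (vec : E → Fin n → F) (σ : Equiv.Perm (Fin n)) (e : E) : ℕ :=
  (supp vec e).sup (fun i => (σ i : ℕ))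

/-- the nonzero columns -/
def nz (vec : E → Fin n → F) : Set E := {e | vec e ≠ 0}

end Vale.Agent.Lib.P331
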