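import Vale.Agent.Lib.P331.Sp.Defs

/-! # P331: columns with pairwise distinct leading positions are independent -/

namespace Vale.Agent.Lib.P331

variable {E F : Type} [Field F] {n : ℕ}

theorem lead_indep (vec : E → Fin n → F) (σ : Equiv.Perm (Fin n)) (I : Set E)
    (h : (keyM (lead vec σ) (nz vec)).Indep I) : LinearIndepOn F vec I := by
  classical
  obtain ⟨hinj, hsub⟩ := (keyM_indep_iff _ _ _).1 h
  rw [linearIndepOn_iff']
  intro s g hs hsum
  by_contra hcon
  have hne : (s.filter (fun e => g e ≠ 0)).Nonempty := by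
    obtain ⟨e, he, hge⟩ := not_forall₂.1 hcon
    exact ⟨e, Finset.mem_filter.2 ⟨he, hge⟩⟩
  obtain ⟨e0, he0, hmax⟩ := Finset.exists_max_image (s.filter (fun e => g e ≠ 0))
    (lead vec σ) hne
  obtain ⟨he0s, hg0⟩ := Finset.mem_filter.1 he0
  have hv0 : vec e0 ≠ 0 := hsub (hs he0s)
  have hsupp : (supp vec e0).Nonempty := by
    obtain ⟨i, hi⟩ := Function.ne_iff.1 hv0
    exact ⟨i, Finset.mem_filter.2 ⟨Finset.mem_univ _, hi⟩⟩
  obtain ⟨i0, hi0, hlead⟩ := Finset.exists_mem_eq_sup (supp vec e0) hsupp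
    (fun i => (σ i : ℕ))
  have hi0' : vec e0 i0 ≠ 0 := (Finset.mem_filter.1 hi0).2
  have hev := congrFun hsum i0
  rw [Finset.sum_apply] at hev
  have hsingle : ∑ e ∈ s, (g e • vec e) i0 = (g e0 • vec e0) i0 := by
    refine Finset.sum_eq_single e0 ?_ (fun hh => absurd he0s hh)
    intro e hes hee0
    rw [Pi.smul_apply, smul_eq_mul]
    by_cases hge : g e = 0
    · rw [hge, zero_mul]
    · by_cases hvi : vec e i0 = 0
      · rw [hvi, mul_zero]
      · exfalso
        have hmem : i0 ∈ supp vec e := Finset.mem_filter.2 ⟨Finset.mem_univ _, hvi⟩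
        have h1 : (σ i0 : ℕ) ≤ lead vec σ e :=
          Finset.le_sup (f := fun i => (σ i : ℕ)) hmem
        have h2 : lead vec σ e ≤ lead vec σ e0 := hmax e (Finset.mem_filter.2 ⟨hes, hge⟩)
        have h3 : lead vec σ e0 = (σ i0 : ℕ) := hlead
        have h4 : lead vec σ e = lead vec σ e0 := by omega
        exact hee0 (hinj (hs hes) (hs he0s) h4)
  rw [hsingle, Pi.smul_apply, smul_eq_mul] at hev
  rcases mul_eq_zero.1 hev with h5 | h5
  · exact hg0 h5
  · exact hi0' h5

end Vale.Agent.Lib.P331
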