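import Vale.Agent.Lib.P331.Sp.Rep
import Vale.Agent.Lib.P331.Sp.Count

/-! # P331: a column sparse matroid is covered on average by the partition matroids of the orders -/

namespace Vale.Agent.Lib.P331

open scoped NNReal ENNReal

variable {E : Type} [Fintype E] [DecidableEq E] {F : Type} [Field F] {n : ℕ}

theorem opt_le_family (M : Matroid E) (vec : E → Fin n → F)
    (hM : ∀ I : Set E, M.Indep I ↔ LinearIndepOn F vec I) (k : ℕ)
    (hk : ∀ e, (supp vec e).card ≤ k) (v : E → ℝ≥0) :
    (Fintype.card (Equiv.Perm (Fin n)) : ℝ≥0) * opt M v ≤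
      k * ∑ σ : Equiv.Perm (Fin n), opt (keyM (lead vec σ) (nz vec)) v := by
  classical
  have hpos : (0 : ℝ≥0) < (Fintype.card (Equiv.Perm (Fin n)) : ℝ≥0) := by
    exact_mod_cast Fintype.card_pos
  have key : ∀ I : Finset E, M.Indep (I : Set E) →
      (Fintype.card (Equiv.Perm (Fin n)) : ℝ≥0) * ∑ e ∈ I, v e ≤
        k * ∑ σ : Equiv.Perm (Fin n), opt (keyM (lead vec σ) (nz vec)) v := by
    intro I hI
    have hI' : LinearIndepOn F vec (I : Set E) := (hM I).1 hI
    rcases I.eq_empty_or_nonempty with hemp | hne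
    · subst hemp
      simp
    obtain ⟨t, ht, htinj⟩ := exists_rep vec I hne hI'
    set cnt : E → ℕ := fun e => (Finset.univ.filter
      (fun σ : Equiv.Perm (Fin n) => lead vec σ e = (σ (t e) : ℕ))).card with hcnt
    have h1 : ∀ σ : Equiv.Perm (Fin n),
        ∑ e ∈ I.filter (fun e => lead vec σ e = (σ (t e) : ℕ)), v e
          ≤ opt (keyM (lead vec σ) (nz vec)) v := by
      intro σ
      apply sum_le_opt
      rw [keyM_indep_iff]
      constructor
      · intro e he e' he' hee
        simp only [Finset.coe_filter, Set.mem_ofPred_eq] at he he'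
        rw [he.2, he'.2] at hee
        exact htinj he.1 he'.1 (σ.injective (Fin.val_injective hee))
      · intro e he
        simp only [Finset.coe_filter, Set.mem_ofPred_eq] at he
        exact hI'.ne_zero he.1
    have h2 : ∑ σ : Equiv.Perm (Fin n),
        ∑ e ∈ I.filter (fun e => lead vec σ e = (σ (t e) : ℕ)), v e
        = ∑ e ∈ I, (cnt e : ℝ≥0) * v e := by
      simp_rw [Finset.sum_filter]
      rw [Finset.sum_comm]
      refine Finset.sum_congr rfl (fun e _ => ?_)
      rw [← Finset.sum_filter, Finset.sum_const, nsmul_eq_mul]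
    have h3 : ∀ e ∈ I,
        (Fintype.card (Equiv.Perm (Fin n)) : ℝ≥0) ≤ (k : ℝ≥0) * (cnt e : ℝ≥0) := by
      intro e he
      have h := count_lead (supp vec e) (t e) (ht e he)
      have h' : n.factorial ≤ k * cnt e := h.trans (Nat.mul_le_mul_right _ (hk e))
      rw [Fintype.card_perm, Fintype.card_fin]
      exact_mod_cast h'
    calc (Fintype.card (Equiv.Perm (Fin n)) : ℝ≥0) * ∑ e ∈ I, v e
        = ∑ e ∈ I, (Fintype.card (Equiv.Perm (Fin n)) : ℝ≥0) * v e := Finset.mul_sum _ _ _
      _ ≤ ∑ e ∈ I, ((k : ℝ≥0) * (cnt e : ℝ≥0)) * v e := by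
          refine Finset.sum_le_sum (fun e he => ?_)
          have := h3 e he
          gcongr
      _ = k * ∑ e ∈ I, (cnt e : ℝ≥0) * v e := by
          rw [Finset.mul_sum]
          exact Finset.sum_congr rfl (fun e _ => mul_assoc _ _ _)
      _ = k * ∑ σ : Equiv.Perm (Fin n),
            ∑ e ∈ I.filter (fun e => lead vec σ e = (σ (t e) : ℕ)), v e := by rw [h2]
      _ ≤ k * ∑ σ : Equiv.Perm (Fin n), opt (keyM (lead vec σ) (nz vec)) v := by
          gcongr with σ _
          exact h1 σ
  have h1 : opt M v ≤ (k * ∑ σ : Equiv.Perm (Fin n), opt (keyM (lead vec σ) (nz vec)) v)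
      / (Fintype.card (Equiv.Perm (Fin n)) : ℝ≥0) :=
    opt_le M v _ (fun I hI => by
      rw [le_div_iff₀' hpos]
      exact key I hI)
  exact (le_div_iff₀' hpos).mp h1

end Vale.Agent.Lib.P331
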