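import Vale.Agent.Lib.P331.Sp.Family
import Vale.Agent.Lib.P331.Sp.Lead
import Vale.Agent.Lib.P331.Sp.OptFam
import Vale.Agent.Lib.P331.Gr.PartComp

/-! # P331: column sparse linear matroids: ratio `1 / (36 k)` -/

namespace Vale.Agent.Lib.P331

open scoped NNReal ENNReal

variable {E : Type} [Fintype E] [DecidableEq E] {F : Type} [Field F] {n : ℕ}

theorem sparse_competitive (M : Matroid E) (vec : E → Fin n → F)
    (hM : ∀ I : Set E, M.Indep I ↔ LinearIndepOn F vec I) (k : ℕ)
    (hk : ∀ e, (supp vec e).card ≤ k) :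
    ∃ R : Rule E, Competitive M R (1 / 36 / k) :=
  competitive_of_family M (fun σ : Equiv.Perm (Fin n) => keyM (lead vec σ) (nz vec))
    (fun σ I hI => (hM I).2 (lead_indep vec σ I hI)) k (opt_le_family M vec hM k hk) (1 / 36)
    (fun σ => ⟨_, keyM_competitive _ _⟩)

end Vale.Agent.Lib.P331
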