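import Vale.Agent.Lib.P331.Gr.Mix

/-! # P331: weighted mixture of two rules -/

namespace Vale.Agent.Lib.P331

open MeasureTheory
open scoped NNReal ENNReal

variable {E : Type} [Fintype E] [DecidableEq E]

theorem mixW_prob (p q : ℝ≥0∞) (hpq : p + q = 1) (R₁ R₂ : Rule E) :
    IsProbabilityMeasure (p • (R₁.law.map Sum.inl) + q • (R₂.law.map Sum.inr) :
      Measure (R₁.Seed ⊕ R₂.Seed)) := by
  constructor
  rw [Measure.add_apply, Measure.smul_apply, Measure.smul_apply,
    Measure.map_apply measurable_inl MeasurableSet.univ,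
    Measure.map_apply measurable_inr MeasurableSet.univ, Set.preimage_univ, Set.preimage_univ,
    measure_univ, measure_univ, smul_eq_mul, smul_eq_mul, mul_one, mul_one]
  exact hpq

/-- Follow `R₁` with probability `p` and `R₂` with probability `q`. -/
noncomputable def mixW (p q : ℝ≥0∞) (hpq : p + q = 1) (R₁ R₂ : Rule E) : Rule E where
  Seed := R₁.Seed ⊕ R₂.Seed
  mSeed := inferInstance
  law := p • (R₁.law.map Sum.inl) + q • (R₂.law.map Sum.inr)
  prob := mixW_prob p q hpq R₁ R₂
  dec := fun r s past e x =>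
    Sum.elim (fun r1 => R₁.dec r1 s past e x) (fun r2 => R₂.dec r2 s past e x) r
  meas := fun past e => mix_meas R₁ R₂ past e

private theorem lint_mixW {A B C : Type} [MeasurableSpace A] [MeasurableSpace B]
    [MeasurableSpace C] (p q : ℝ≥0∞) (μ₁ : Measure A) (μ₂ : Measure B) (ν : Measure C)
    [SFinite μ₁] [SFinite μ₂] [SFinite ν] (F : (A ⊕ B) × C → ℝ≥0∞) :
    ∫⁻ x, F x ∂((p • (μ₁.map Sum.inl) + q • (μ₂.map Sum.inr) : Measure (A ⊕ B)).prod ν)
      = p * ∫⁻ x, F (Sum.inl x.1, x.2) ∂(μ₁.prod ν)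
        + q * ∫⁻ x, F (Sum.inr x.1, x.2) ∂(μ₂.prod ν) := by
  have e1 : ((μ₁.map (Sum.inl : A → A ⊕ B)).prod ν)
      = (μ₁.prod ν).map (Prod.map Sum.inl id) := by
    have := (Measure.map_prod_map μ₁ ν (measurable_inl : Measurable
      (Sum.inl : A → A ⊕ B)) measurable_id)
    rw [Measure.map_id] at this
    exact this
  have e2 : ((μ₂.map (Sum.inr : B → A ⊕ B)).prod ν)
      = (μ₂.prod ν).map (Prod.map Sum.inr id) := by
    have := (Measure.map_prod_map μ₂ ν (measurable_inr : Measurable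
      (Sum.inr : B → A ⊕ B)) measurable_id)
    rw [Measure.map_id] at this
    exact this
  rw [Measure.add_prod, Measure.prod_smul_left, Measure.prod_smul_left, e1, e2,
    lintegral_add_measure, lintegral_smul_measure, lintegral_smul_measure]
  have m1 : MeasurableEmbedding (Prod.map (Sum.inl : A → A ⊕ B) (id : C → C)) :=
    MeasurableEmbedding.prodMap
      ⟨Sum.inl_injective, measurable_inl, fun _ hs => hs.inl_image⟩ MeasurableEmbedding.id
  have m2 : MeasurableEmbedding (Prod.map (Sum.inr : B → A ⊕ B) (id : C → C)) :=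
    MeasurableEmbedding.prodMap
      ⟨Sum.inr_injective, measurable_inr, fun _ hs => hs.inr_image⟩ MeasurableEmbedding.id
  rw [m1.lintegral_map, m2.lintegral_map]
  rfl

theorem mixW_gain (M : Matroid E) (p q : ℝ≥0∞) (hpq : p + q = 1) (R₁ R₂ : Rule E)
    (D : E → Measure ℝ≥0) [∀ e, IsProbabilityMeasure (D e)] (adv : Adversary (mixW p q hpq R₁ R₂)) :
    ∃ (a₁ : Adversary R₁) (a₂ : Adversary R₂),
      gain M (mixW p q hpq R₁ R₂) D adv = p * gain M R₁ D a₁ + q * gain M R₂ D a₂ := by
  let a₁ : Adversary R₁ :=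
    { order := fun r s v => adv.order (Sum.inl r) s v
      nodup := fun r s v => adv.nodup (Sum.inl r) s v
      complete := fun r s v e => adv.complete (Sum.inl r) s v e
      meas := fun l => by
        have hm : Measurable (fun x : R₁.Seed × (E → ℝ≥0) × (E → ℝ≥0) =>
            ((Sum.inl x.1, x.2) : (R₁.Seed ⊕ R₂.Seed) × (E → ℝ≥0) × (E → ℝ≥0))) :=
          (measurable_inl.comp measurable_fst).prodMk measurable_snd
        exact hm (adv.meas l) }
  let a₂ : Adversary R₂ :=
    { order := fun r s v => adv.order (Sum.inr r) s v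
      nodup := fun r s v => adv.nodup (Sum.inr r) s v
      complete := fun r s v e => adv.complete (Sum.inr r) s v e
      meas := fun l => by
        have hm : Measurable (fun x : R₂.Seed × (E → ℝ≥0) × (E → ℝ≥0) =>
            ((Sum.inr x.1, x.2) : (R₁.Seed ⊕ R₂.Seed) × (E → ℝ≥0) × (E → ℝ≥0))) :=
          (measurable_inr.comp measurable_fst).prodMk measurable_snd
        exact hm (adv.meas l) }
  refine ⟨a₁, a₂, ?_⟩
  exact lint_mixW p q R₁.law R₂.law ((Measure.pi D).prod (Measure.pi D))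
    (fun x : (R₁.Seed ⊕ R₂.Seed) × (E → ℝ≥0) × (E → ℝ≥0) =>
      ((∑ e ∈ run M (mixW p q hpq R₁ R₂) x.1 x.2.1 x.2.2 (adv.order x.1 x.2.1 x.2.2),
        x.2.2 e : ℝ≥0) : ℝ≥0∞))

end Vale.Agent.Lib.P331
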