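import Vale.Agent.Lib.P331.Sp.Defs

/-! # P331: an independent set of columns has distinct representatives in the supports

NOTE (helper94): the original form `∃ t : E → Fin n, ...` without hypothesis is false for `n = 0`,
`E` nonempty, `I = ∅` (there is no function `E → Fin 0`).  `exists_rep_sub` is the form with
`t : I → Fin n` (always true); `exists_rep_pos` has the extra hypothesis `0 < n`;
`exists_rep` has `I.Nonempty` instead (statement of helper19, 06:28Z). -/

namespace Vale.Agent.Lib.P331

variable {E F : Type} [Field F] {n : ℕ}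

/-- the condition of the marriage theorem -/
theorem hall_cond [DecidableEq E] (vec : E → Fin n → F) (I : Finset E)
    (hI : LinearIndepOn F vec (I : Set E)) (S : Finset I) :
    S.card ≤ (S.biUnion (fun e : I => supp vec e.1)).card := by
  classical
  obtain ⟨N, hN⟩ : ∃ N : Finset (Fin n), N = S.biUnion (fun e : I => supp vec e.1) := ⟨_, rfl⟩
  rw [← hN]
  have hlin : LinearIndependent F (fun e : S => vec e.1.1) := by
    have h1 : LinearIndependent F (fun e : (I : Set E) => vec e.1) := hI
    refine h1.comp (fun e : S => (⟨e.1.1, e.1.2⟩ : (I : Set E))) ?_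
    intro a b hab
    have h2 : a.1.1 = b.1.1 := congrArg Subtype.val hab
    exact Subtype.ext (Subtype.ext h2)
  have hdisj : Disjoint (Submodule.span F (Set.range (fun e : S => vec e.1.1)))
      (LinearMap.ker (LinearMap.funLeft F F (Subtype.val : N → Fin n))) := by
    rw [Submodule.disjoint_def]
    intro x hx hker
    have hout : ∀ i, i ∉ N → x i = 0 := by
      let W : Submodule F (Fin n → F) :=
        { carrier := {x | ∀ i, i ∉ N → x i = 0}
          add_mem' := by
            intro a b ha hb i hi
            simp only [Pi.add_apply]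
            rw [ha i hi, hb i hi, add_zero]
          zero_mem' := by
            intro i _
            rfl
          smul_mem' := by
            intro c a ha i hi
            simp only [Pi.smul_apply]
            rw [ha i hi, smul_zero] }
      have hle : Submodule.span F (Set.range (fun e : S => vec e.1.1)) ≤ W := by
        refine Submodule.span_le.mpr ?_
        rintro _ ⟨e, rfl⟩ i hi
        by_contra hne
        apply hi
        rw [hN]
        refine Finset.mem_biUnion.mpr ⟨e.1, e.2, ?_⟩
        unfold supp
        exact Finset.mem_filter.mpr ⟨Finset.mem_univ _, hne⟩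
      exact hle hx
    funext i
    by_cases hi : i ∈ N
    · have h3 := congrFun (LinearMap.mem_ker.mp hker) ⟨i, hi⟩
      simpa [LinearMap.funLeft_apply] using h3
    · exact hout i hi
  have hlin2 := hlin.map hdisj
  have hcard := hlin2.fintype_card_le_finrank
  simpa using hcard

theorem exists_rep_sub [DecidableEq E] (vec : E → Fin n → F) (I : Finset E)
    (hI : LinearIndepOn F vec (I : Set E)) :
    ∃ t : I → Fin n, (∀ e : I, t e ∈ supp vec e.1) ∧ Function.Injective t := by
  obtain ⟨f, hf, hmem⟩ := (Finset.all_card_le_biUnion_card_iff_exists_injective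
    (fun e : I => supp vec e.1)).mp (hall_cond vec I hI)
  exact ⟨f, hmem, hf⟩

theorem exists_rep_pos [DecidableEq E] (hn : 0 < n) (vec : E → Fin n → F) (I : Finset E)
    (hI : LinearIndepOn F vec (I : Set E)) :
    ∃ t : E → Fin n, (∀ e ∈ I, t e ∈ supp vec e) ∧ Set.InjOn t (I : Set E) := by
  obtain ⟨f, hmem, hf⟩ := exists_rep_sub vec I hI
  refine ⟨fun e => if h : e ∈ I then f ⟨e, h⟩ else ⟨0, hn⟩, ?_, ?_⟩
  · intro e he
    simp only [dif_pos he]
    exact hmem ⟨e, he⟩
  · intro a ha b hb hab
    have ha' : a ∈ I := ha
    have hb' : b ∈ I := hb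
    simp only [dif_pos ha', dif_pos hb'] at hab
    exact congrArg Subtype.val (hf hab)

theorem exists_rep [DecidableEq E] (vec : E → Fin n → F) (I : Finset E)
    (hne : I.Nonempty) (hI : LinearIndepOn F vec (I : Set E)) :
    ∃ t : E → Fin n, (∀ e ∈ I, t e ∈ supp vec e) ∧ Set.InjOn t (I : Set E) := by
  obtain ⟨f, -, -⟩ := exists_rep_sub vec I hI
  obtain ⟨e, he⟩ := hne
  exact exists_rep_pos (Nat.lt_of_le_of_lt (Nat.zero_le _) (f ⟨e, he⟩).2) vec I hI

end Vale.Agent.Lib.P331
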