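import Vale.Agent.Lib.P331.Sp.Defs

/-! # P331: an independent set of columns has distinct representatives in the supports -/

namespace Vale.Agent.Lib.P331

variable {E F : Type} [Field F] {n : ℕ}

/-- version of `exists_rep` for nonempty `I` (for `n = 0`, `I = ∅` and nonempty `E` there is no
function `E → Fin n` at all) -/
theorem exists_rep_of_nonempty [DecidableEq E] (vec : E → Fin n → F) (I : Finset E)
    (hne : I.Nonempty) (hI : LinearIndepOn F vec (I : Set E)) :
    ∃ t : E → Fin n, (∀ e ∈ I, t e ∈ supp vec e) ∧ Set.InjOn t (I : Set E) := by
  classical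
  have hall : ∀ S : Finset I,
      S.card ≤ (S.biUnion fun e : I => supp vec (e : E)).card := by
    intro S
    set N := S.biUnion fun e : I => supp vec (e : E) with hN
    have hli : LinearIndependent F (fun e : S => vec ((e : I) : E)) := by
      have h1 : LinearIndependent F (fun e : (I : Set E) => vec e) := hI
      exact h1.comp (fun e : S => (⟨((e : I) : E), (e : I).2⟩ : (I : Set E)))
        (fun a b hab => by
          have := congrArg Subtype.val hab
          exact Subtype.ext (Subtype.ext this))
    have key := linearIndependent_le_span_aux' (fun e : S => vec ((e : I) : E)) hli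
      (↑(N.image fun i => (Pi.single i (1 : F) : Fin n → F)) : Set (Fin n → F)) (by
        rintro _ ⟨e, rfl⟩
        have hsum : vec ((e : I) : E)
            = ∑ i, vec ((e : I) : E) i • (Pi.single i (1 : F) : Fin n → F) := by
          funext j
          simp [Finset.sum_apply, Pi.single_apply]
        show vec ((e : I) : E) ∈ _
        rw [hsum]
        refine Submodule.sum_mem _ fun i _ => ?_
        by_cases h0 : vec ((e : I) : E) i = 0
        · rw [h0, zero_smul]; exact Submodule.zero_mem _
        · refine Submodule.smul_mem _ _ (Submodule.subset_span ?_)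
          have hi : i ∈ N := by
            rw [hN, Finset.mem_biUnion]
            exact ⟨(e : I), e.2, by simp [supp, h0]⟩
          exact Finset.mem_coe.2 (Finset.mem_image_of_mem _ hi))
    have h2 : Fintype.card S = S.card := Fintype.card_coe S
    have h3 : Fintype.card (↑(N.image fun i => (Pi.single i (1 : F) : Fin n → F)) :
        Set (Fin n → F)) = (N.image fun i => (Pi.single i (1 : F) : Fin n → F)).card := by
      simp
    rw [h2, h3] at key
    exact key.trans Finset.card_image_le
  obtain ⟨f, hfi, hfm⟩ :=
    (Finset.all_card_le_biUnion_card_iff_exists_injective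
      (fun e : I => supp vec (e : E))).1 hall
  obtain ⟨e0, he0⟩ := hne
  refine ⟨fun e => if h : e ∈ I then f ⟨e, h⟩ else f ⟨e0, he0⟩, fun e he => ?_,
    fun a ha b hb hab => ?_⟩
  · have := hfm ⟨e, he⟩
    simpa [he] using this
  · have ha' : a ∈ I := ha
    have hb' : b ∈ I := hb
    simp only [ha', hb', dif_pos] at hab
    exact congrArg Subtype.val (hfi hab)

end Vale.Agent.Lib.P331
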