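import Vale.Agent.Lib.P331.Sp.MixW

/-! # P331: uniform mixture of finitely many rules -/

namespace Vale.Agent.Lib.P331

open MeasureTheory
open scoped NNReal ENNReal

variable {E : Type} [Fintype E] [DecidableEq E]

theorem exists_uniform_mix {ι : Type} (t : Finset ι) (ht : t.Nonempty) (M : Matroid E)
    (P : (E → Measure ℝ≥0) → Prop) (B : ι → (E → Measure ℝ≥0) → ℝ≥0∞)
    (h : ∀ i ∈ t, ∃ R : Rule E, ∀ D : E → Measure ℝ≥0, (∀ e, IsProbabilityMeasure (D e)) → P D →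
      ∀ adv : Adversary R, B i D ≤ gain M R D adv) :
    ∃ R : Rule E, ∀ D : E → Measure ℝ≥0, (∀ e, IsProbabilityMeasure (D e)) → P D →
      ∀ adv : Adversary R, (t.card : ℝ≥0∞)⁻¹ * ∑ i ∈ t, B i D ≤ gain M R D adv := by
  revert h
  refine Finset.Nonempty.cons_induction
    (motive := fun t _ => (∀ i ∈ t, ∃ R : Rule E, ∀ D : E → Measure ℝ≥0,
      (∀ e, IsProbabilityMeasure (D e)) → P D →
      ∀ adv : Adversary R, B i D ≤ gain M R D adv) →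
      ∃ R : Rule E, ∀ D : E → Measure ℝ≥0, (∀ e, IsProbabilityMeasure (D e)) → P D →
      ∀ adv : Adversary R, (t.card : ℝ≥0∞)⁻¹ * ∑ i ∈ t, B i D ≤ gain M R D adv) ?_ ?_ ht
  · intro a h
    obtain ⟨R, hR⟩ := h a (Finset.mem_singleton_self a)
    refine ⟨R, fun D hD hP adv => ?_⟩
    simpa using hR D hD hP adv
  · intro a t ha ht ih h
    obtain ⟨Ra, hRa⟩ := h a (Finset.mem_cons_self a t)
    obtain ⟨Rt, hRt⟩ := ih (fun i hi => h i (Finset.mem_cons.mpr (Or.inr hi)))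
    obtain ⟨m, hm⟩ : ∃ m : ℝ≥0∞, m = (t.card : ℝ≥0∞) := ⟨_, rfl⟩
    have hm0 : m ≠ 0 := by
      rw [hm]
      exact Nat.cast_ne_zero.mpr (Finset.card_ne_zero.mpr ht)
    have hmt : m ≠ ⊤ := by
      rw [hm]
      exact ENNReal.natCast_ne_top _
    have hm1 : m + 1 ≠ 0 := by simp
    have hm1t : m + 1 ≠ ⊤ := by simp [hmt]
    have hpq : (m + 1)⁻¹ + m * (m + 1)⁻¹ = 1 := by
      have h1 : (m + 1)⁻¹ + m * (m + 1)⁻¹ = (m + 1) * (m + 1)⁻¹ := by ring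
      rw [h1, ENNReal.mul_inv_cancel hm1 hm1t]
    refine ⟨mixW _ _ hpq Ra Rt, fun D hD hP adv => ?_⟩
    obtain ⟨a1, a2, hg⟩ := mixW_gain M _ _ hpq Ra Rt D adv
    rw [hg, Finset.card_cons, Finset.sum_cons, Nat.cast_add, Nat.cast_one, ← hm]
    have e1 : (m + 1)⁻¹ * (B a D + ∑ i ∈ t, B i D)
        = (m + 1)⁻¹ * B a D + m * (m + 1)⁻¹ * (m⁻¹ * ∑ i ∈ t, B i D) := by
      have h2 : m * (m + 1)⁻¹ * (m⁻¹ * ∑ i ∈ t, B i D)
          = (m * m⁻¹) * ((m + 1)⁻¹ * ∑ i ∈ t, B i D) := by ring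
      rw [h2, ENNReal.mul_inv_cancel hm0 hmt, one_mul, mul_add]
    rw [e1]
    have h3 := hRa D hD hP a1
    have h4 := hRt D hD hP a2
    rw [← hm] at h4
    exact add_le_add (mul_le_mul_right h3 _) (mul_le_mul_right h4 _)

end Vale.Agent.Lib.P331
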